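import Mathlib

namespace Vale.Agent.Lib.P199

open Polynomial

variable {F D : Type*} [Field F] [DivisionRing D] [Algebra F D]

/-- In a division algebra, a subalgebra contains the inverse of each of its algebraic elements. -/
theorem inv_mem_of_isAlgebraic (A : Subalgebra F D) {a : D} (ha : a ∈ A)
    (halg : IsAlgebraic F a) : a⁻¹ ∈ A := by
  by_cases h0 : a = 0
  · simp [h0]
  have hint : IsIntegral F a := halg.isIntegral
  set p := minpoly F a with hp
  have hc : p.coeff 0 ≠ 0 := minpoly.coeff_zero_ne_zero hint h0
  have h1 : aeval a (divX p) * a + algebraMap F D (p.coeff 0) = 0 := by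
    have := congrArg (aeval a) (divX_mul_X_add p)
    simpa [hp, minpoly.aeval] using this
  have h2 : a⁻¹ = (-(p.coeff 0)⁻¹) • aeval a (divX p) := by
    have h3 : aeval a (divX p) * a = - algebraMap F D (p.coeff 0) := by
      rw [eq_neg_iff_add_eq_zero]; exact h1
    have h4 : aeval a (divX p) = - algebraMap F D (p.coeff 0) * a⁻¹ := by
      rw [← h3, mul_assoc, mul_inv_cancel₀ h0, mul_one]
    rw [h4, Algebra.smul_def, map_neg, map_inv₀]
    have hc' : algebraMap F D (p.coeff 0) ≠ 0 := by
      simpa using hc
    rw [← mul_assoc, neg_mul_neg, inv_mul_cancel₀ hc', one_mul]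
  rw [h2]
  refine A.smul_mem ?_ _
  have : aeval a (divX p) ∈ Algebra.adjoin F {a} := by
    exact aeval_mem_adjoin_singleton F a
  exact (Algebra.adjoin_le (by simpa using ha)) this

/-- Adjoining an algebraic element `t` with `t A ⊆ A t` to a finite-dimensional subalgebra `A`
gives a finite-dimensional subalgebra. -/
theorem finiteDimensional_adjoin_insert (A : Subalgebra F D) [FiniteDimensional F A] (t : D)
    (ht : IsAlgebraic F t) (h : ∀ a ∈ A, ∃ a' ∈ A, t * a = a' * t) :
    FiniteDimensional F (Algebra.adjoin F (insert t (A : Set D))) := by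
  set P : Subalgebra F D := Algebra.adjoin F {t} with hPdef
  have htP : t ∈ P := Algebra.subset_adjoin (Set.mem_singleton t)
  have hPfg : P.toSubmodule.FG := ht.isIntegral.fg_adjoin_singleton
  have hAfg : A.toSubmodule.FG := by
    rw [Submodule.fg_iff_finiteDimensional]
    exact (Subalgebra.finiteDimensional_toSubmodule).2 inferInstance
  set M : Submodule F D := A.toSubmodule * P.toSubmodule with hM
  have hMfg : M.FG := hAfg.mul hPfg
  have hMfd : FiniteDimensional F M := (Submodule.fg_iff_finiteDimensional M).1 hMfg
  have key : ∀ z ∈ Algebra.adjoin F (insert t (A : Set D)), ∀ m ∈ M, z * m ∈ M := by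
    intro z hz
    induction hz using Algebra.adjoin_induction with
    | mem x hx =>
      intro m hm
      rcases hx with rfl | hx
      · induction hm using Submodule.mul_induction_on' with
        | mem_mul_mem a ha p hp =>
          obtain ⟨a', ha', e⟩ := h a ha
          rw [← mul_assoc, e, mul_assoc]
          exact Submodule.mul_mem_mul ha' (P.mul_mem htP hp)
        | add x _ y _ hx hy => rw [mul_add]; exact M.add_mem hx hy
      · induction hm using Submodule.mul_induction_on' with
        | mem_mul_mem a ha p hp =>
          rw [← mul_assoc]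
          exact Submodule.mul_mem_mul (A.mul_mem hx ha) hp
        | add x _ y _ hx hy => rw [mul_add]; exact M.add_mem hx hy
    | algebraMap r =>
      intro m hm
      rw [← Algebra.smul_def]
      exact M.smul_mem r hm
    | add x y _ _ hx hy =>
      intro m hm
      rw [add_mul]
      exact M.add_mem (hx m hm) (hy m hm)
    | mul x y _ _ hx hy =>
      intro m hm
      rw [mul_assoc]
      exact hx _ (hy m hm)
  have h1M : (1 : D) ∈ M := by
    have : (1 : D) * 1 ∈ M := Submodule.mul_mem_mul A.one_mem P.one_mem
    simpa using this
  have hle : (Algebra.adjoin F (insert t (A : Set D))).toSubmodule ≤ M := by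
    intro z hz
    have := key z hz 1 h1M
    simpa using this
  have : FiniteDimensional F (Algebra.adjoin F (insert t (A : Set D))).toSubmodule :=
    Submodule.finiteDimensional_of_le hle
  exact (Subalgebra.finiteDimensional_toSubmodule).1 this

/-- conjugation stability passes from generators to the generated subalgebra -/
theorem conj_mem_adjoin (X : Set D) (B : Subalgebra F D) (t u : D) (hut : u * t = 1)
    (h : ∀ x ∈ X, t * x * u ∈ B) : ∀ x ∈ Algebra.adjoin F X, t * x * u ∈ B := by
  have htu : t * u = 1 := by
    have ht0 : t ≠ 0 := by
      rintro rfl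
      simp at hut
    have : u = t⁻¹ := eq_inv_of_mul_eq_one_left hut
    rw [this, mul_inv_cancel₀ ht0]
  intro x hx
  induction hx using Algebra.adjoin_induction with
  | mem x hx => exact h x hx
  | algebraMap r =>
    have : t * algebraMap F D r * u = algebraMap F D r := by
      rw [← Algebra.commutes, mul_assoc, htu, mul_one]
    rw [this]; exact B.algebraMap_mem r
  | add x y _ _ hx hy =>
    rw [mul_add, add_mul]; exact B.add_mem hx hy
  | mul x y _ _ hx hy =>
    have : t * (x * y) * u = (t * x * u) * (t * y * u) := by
      calc t * (x * y) * u = t * x * 1 * y * u := by simp [mul_assoc]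
        _ = t * x * (u * t) * y * u := by rw [hut]
        _ = (t * x * u) * (t * y * u) := by simp [mul_assoc]
    rw [this]; exact B.mul_mem hx hy

end Vale.Agent.Lib.P199
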