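import Vale.Agent.Lib.P199.Solvable

namespace Vale.Agent.Lib.P199

variable {F D : Type*} [Field F] [DivisionRing D] [Algebra F D]

/-- Cartan-Brauer-Hua: a proper subalgebra that is closed under inverses and invariant under all
inner automorphisms is central. -/
theorem cartan_brauer_hua (K : Subalgebra F D) (hinv : ∀ x ∈ K, x⁻¹ ∈ K)
    (hconj : ∀ u : D, u ≠ 0 → ∀ a ∈ K, u * a * u⁻¹ ∈ K) (hne : ∃ x, x ∉ K) :
    ∀ a ∈ K, ∀ y : D, a * y = y * a := by
  have step : ∀ a ∈ K, ∀ x : D, x ∉ K → a * x = x * a := by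
    intro a ha x hx
    have hx0 : x ≠ 0 := by
      rintro rfl; exact hx K.zero_mem
    have hx1 : 1 + x ≠ 0 := by
      intro h
      apply hx
      have : x = -1 := eq_neg_of_add_eq_zero_right h
      rw [this]; exact K.neg_mem K.one_mem
    set a₁ := x * a * x⁻¹ with ha₁
    set a₂ := (1 + x) * a * (1 + x)⁻¹ with ha₂
    have h₁ : a₁ ∈ K := hconj x hx0 a ha
    have h₂ : a₂ ∈ K := hconj (1 + x) hx1 a ha
    have e₁ : x * a = a₁ * x := by
      rw [ha₁, mul_assoc (x * a), inv_mul_cancel₀ hx0, mul_one]
    have e₂ : (1 + x) * a = a₂ * (1 + x) := by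
      rw [ha₂, mul_assoc ((1 + x) * a), inv_mul_cancel₀ hx1, mul_one]
    have e₃ : (a₁ - a₂) * x = a₂ - a := by
      have : a + x * a = a₂ + a₂ * x := by
        have := e₂
        rw [add_mul, one_mul, mul_add, mul_one] at this
        exact this
      rw [e₁] at this
      rw [sub_mul, sub_eq_sub_iff_add_eq_add, add_comm (a₁ * x) a]
      exact this
    by_cases h12 : a₁ = a₂
    · rw [h12, sub_self, zero_mul] at e₃
      have : a₂ = a := by
        exact sub_eq_zero.1 e₃.symm
      rw [e₁, h12, this]
    · exfalso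
      apply hx
      have hne' : a₁ - a₂ ≠ 0 := sub_ne_zero.2 h12
      have : x = (a₁ - a₂)⁻¹ * (a₂ - a) := by
        rw [← e₃, ← mul_assoc, inv_mul_cancel₀ hne', one_mul]
      rw [this]
      exact K.mul_mem (hinv _ (K.sub_mem h₁ h₂)) (K.sub_mem h₂ ha)
  obtain ⟨x, hx⟩ := hne
  intro a ha y
  by_cases hy : y ∈ K
  · have hxy : x + y ∉ K := by
      intro h
      apply hx
      have : x = (x + y) - y := (add_sub_cancel_right x y).symm
      rw [this]; exact K.sub_mem h hy
    have h1 := step a ha (x + y) hxy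
    have h2 := step a ha x hx
    rw [mul_add, add_mul, h2] at h1
    exact add_left_cancel h1
  · exact step a ha y hy

/-- Conjugation by a nonzero element as an algebra endomorphism. -/
def conjHom (F : Type*) {D : Type*} [Field F] [DivisionRing D] [Algebra F D] (u : D)
    (hu : u ≠ 0) : D →ₐ[F] D where
  toFun x := u * x * u⁻¹
  map_one' := by rw [mul_one, mul_inv_cancel₀ hu]
  map_mul' x y := by
    calc u * (x * y) * u⁻¹ = u * x * 1 * y * u⁻¹ := by simp [mul_assoc]
      _ = u * x * (u⁻¹ * u) * y * u⁻¹ := by rw [inv_mul_cancel₀ hu]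
      _ = u * x * u⁻¹ * (u * y * u⁻¹) := by simp [mul_assoc]
  map_zero' := by simp
  map_add' x y := by rw [mul_add, add_mul]
  commutes' r := by
    rw [← Algebra.commutes, mul_assoc, mul_inv_cancel₀ hu, mul_one]

@[simp] theorem conjHom_apply (u : D) (hu : u ≠ 0) (x : D) : conjHom F u hu x = u * x * u⁻¹ := rfl

/-- **Reduction to conjugates.** If `a` is not central and every finite set of conjugates of `a`
generates a finite-dimensional subalgebra, then `D` is locally finite-dimensional. -/
theorem locFin_of_conjugates [Algebra.IsAlgebraic F D] (a : D) (ha : ∃ y, a * y ≠ y * a)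
    (h : ∀ s : Finset D, (∀ x ∈ s, ∃ u : D, u ≠ 0 ∧ x = u * a * u⁻¹) →
      FiniteDimensional F (Algebra.adjoin F (s : Set D))) (s : Finset D) :
    FiniteDimensional F (Algebra.adjoin F (s : Set D)) := by
  set X : Set D := {x | ∃ u : D, u ≠ 0 ∧ x = u * a * u⁻¹} with hX
  set R := Algebra.adjoin F X with hR
  have hinv : ∀ x ∈ R, x⁻¹ ∈ R := fun x hx =>
    inv_mem_of_isAlgebraic R hx (Algebra.IsAlgebraic.isAlgebraic x)
  have hconj : ∀ u : D, u ≠ 0 → ∀ x ∈ R, u * x * u⁻¹ ∈ R := by
    intro u hu
    refine conj_mem_adjoin X R u u⁻¹ (inv_mul_cancel₀ hu) ?_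
    rintro x ⟨v, hv, rfl⟩
    refine Algebra.subset_adjoin ⟨u * v, mul_ne_zero hu hv, ?_⟩
    rw [mul_inv_rev]; simp only [mul_assoc]
  have haR : a ∈ R := Algebra.subset_adjoin ⟨1, one_ne_zero, by simp⟩
  have htop : ∀ x : D, x ∈ R := by
    by_contra hcon
    push Not at hcon
    obtain ⟨y, hy⟩ := ha
    exact hy (cartan_brauer_hua R hinv hconj hcon a haR y)
  have hs' : (s : Set D) ⊆ Algebra.adjoin F (insert (1 : D) X) := fun x _ =>
    Algebra.adjoin_mono (Set.subset_insert _ _) (htop x)
  obtain ⟨Y, hY, hsY⟩ := exists_finset_of_subset_adjoin_insert (1 : D) X s hs'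
  have hfd := h Y (fun x hx => hY hx)
  refine fd_of_le (Algebra.adjoin_le (hsY.trans ?_)) hfd
  have : Algebra.adjoin F (insert (1 : D) (Y : Set D)) ≤ Algebra.adjoin F (Y : Set D) := by
    refine Algebra.adjoin_le ?_
    rw [Set.insert_subset_iff]
    exact ⟨Subalgebra.one_mem _, Algebra.subset_adjoin⟩
  exact this

/-- **Dichotomy.** If some non-central `a` has the property that adjoining it to any
finite-dimensional subalgebra gives a finite-dimensional subalgebra, then `D` is locally
finite-dimensional. -/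
theorem locFin_of_good_element [Algebra.IsAlgebraic F D] (a : D) (ha : ∃ y, a * y ≠ y * a)
    (h : ∀ B : Subalgebra F D, FiniteDimensional F B →
      FiniteDimensional F (Algebra.adjoin F (insert a (B : Set D)))) (s : Finset D) :
    FiniteDimensional F (Algebra.adjoin F (s : Set D)) := by
  classical
  let good : D → Prop := fun x => ∀ B : Subalgebra F D, FiniteDimensional F B →
      FiniteDimensional F (Algebra.adjoin F (insert x (B : Set D)))
  have two : ∀ x y z : D, good x → good y →
      (∀ C : Subalgebra F D, x ∈ C → y ∈ C → z ∈ C) → good z := by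
    intro x y z hx hy hz B hB
    have h1 := hx B hB
    have h2 := hy _ h1
    refine fd_of_le (Algebra.adjoin_le ?_) h2
    rw [Set.insert_subset_iff]
    constructor
    · apply hz
      · exact Algebra.subset_adjoin (Or.inr (Algebra.subset_adjoin (Or.inl rfl)))
      · exact Algebra.subset_adjoin (Or.inl rfl)
    · intro w hw
      exact Algebra.subset_adjoin (Or.inr (Algebra.subset_adjoin (Or.inr hw)))
  have hscal : ∀ r : F, good (algebraMap F D r) := by
    intro r B hB
    refine fd_of_le (Algebra.adjoin_le ?_) hB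
    rw [Set.insert_subset_iff]
    exact ⟨B.algebraMap_mem r, subset_rfl⟩
  let Λ : Subalgebra F D :=
    { carrier := {x | good x}
      mul_mem' := fun {x y} hx hy => two x y (x * y) hx hy fun C => C.mul_mem
      add_mem' := fun {x y} hx hy => two x y (x + y) hx hy fun C => C.add_mem
      algebraMap_mem' := hscal }
  have hinv : ∀ x ∈ Λ, x⁻¹ ∈ Λ := fun x hx =>
    inv_mem_of_isAlgebraic Λ hx (Algebra.IsAlgebraic.isAlgebraic x)
  have hconj : ∀ u : D, u ≠ 0 → ∀ x ∈ Λ, u * x * u⁻¹ ∈ Λ := by
    intro u hu x hx B hB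
    have hu' : u⁻¹ ≠ 0 := inv_ne_zero hu
    have hB' : FiniteDimensional F (B.map (conjHom F u⁻¹ hu')) := by
      have : FiniteDimensional F (Submodule.map (conjHom F u⁻¹ hu').toLinearMap B.toSubmodule) :=
        have := (Subalgebra.finiteDimensional_toSubmodule).2 hB
        inferInstance
      exact this
    have h1 := hx _ hB'
    have h2 : FiniteDimensional F ((Algebra.adjoin F
        (insert x ((B.map (conjHom F u⁻¹ hu') : Subalgebra F D) : Set D))).map
          (conjHom F u hu)) := by
      have : FiniteDimensional F (Submodule.map (conjHom F u hu).toLinearMap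
          (Algebra.adjoin F
            (insert x ((B.map (conjHom F u⁻¹ hu') : Subalgebra F D) : Set D))).toSubmodule) :=
        have := (Subalgebra.finiteDimensional_toSubmodule).2 h1
        inferInstance
      exact this
    refine fd_of_le (Algebra.adjoin_le ?_) h2
    rw [Set.insert_subset_iff]
    constructor
    · exact ⟨x, Algebra.subset_adjoin (Or.inl rfl), rfl⟩
    · intro w hw
      refine ⟨u⁻¹ * w * u, Algebra.subset_adjoin (Or.inr ⟨w, hw, by simp⟩), ?_⟩
      simp only [AlgHom.coe_toRingHom, conjHom_apply]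
      rw [← mul_assoc, ← mul_assoc, mul_inv_cancel₀ hu, one_mul, mul_assoc, mul_inv_cancel₀ hu,
        mul_one]
  have htop : ∀ x : D, x ∈ Λ := by
    by_contra hcon
    push Not at hcon
    obtain ⟨y, hy⟩ := ha
    exact hy (cartan_brauer_hua Λ hinv hconj hcon a h y)
  induction s using Finset.induction_on with
  | empty =>
    refine fd_of_le (B := ⊥) (Algebra.adjoin_le (by simp)) inferInstance
  | insert x s _ ih =>
    refine fd_of_le (Algebra.adjoin_le ?_) (htop x _ ih)
    rw [Finset.coe_insert, Set.insert_subset_iff]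
    exact ⟨Algebra.subset_adjoin (Or.inl rfl),
      fun w hw => Algebra.subset_adjoin (Or.inr (Algebra.subset_adjoin hw))⟩

end Vale.Agent.Lib.P199
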