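import Vale.Agent.Lib.P199.Basic

namespace Vale.Agent.Lib.P199

open Polynomial

variable {F D : Type*} [Field F] [DivisionRing D] [Algebra F D]

theorem pow_conj_mem (R : Subalgebra F D) (t : D)
    (h1 : ∀ x ∈ R, t * x * t⁻¹ ∈ R) (i : ℕ) : ∀ x ∈ R, t ^ i * x * (t ^ i)⁻¹ ∈ R := by
  induction i with
  | zero => intro x hx; simpa using hx
  | succ i ih =>
    intro x hx
    have : t ^ (i + 1) * x * (t ^ (i + 1))⁻¹ = t * (t ^ i * x * (t ^ i)⁻¹) * t⁻¹ := by
      rw [pow_succ', mul_inv_rev]; simp [mul_assoc]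
    rw [this]; exact h1 _ (ih x hx)

theorem pow_conj_mem' (R : Subalgebra F D) (t : D)
    (h2 : ∀ x ∈ R, t⁻¹ * x * t ∈ R) (i : ℕ) : ∀ x ∈ R, (t ^ i)⁻¹ * x * t ^ i ∈ R := by
  induction i with
  | zero => intro x hx; simpa using hx
  | succ i ih =>
    intro x hx
    have : (t ^ (i + 1))⁻¹ * x * t ^ (i + 1) = t⁻¹ * ((t ^ i)⁻¹ * x * t ^ i) * t := by
      rw [pow_succ, mul_inv_rev]; simp [mul_assoc]
    rw [this]; exact h2 _ (ih x hx)

theorem exists_pow_inner_aux [Algebra.IsAlgebraic F D] (R : Subalgebra F D) (t : D) (ht0 : t ≠ 0)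
    (h1 : ∀ x ∈ R, t * x * t⁻¹ ∈ R) (h2 : ∀ x ∈ R, t⁻¹ * x * t ∈ R) (n : ℕ) :
    ∀ a : ℕ → D, (∀ i, a i ∈ R) → a n ≠ 0 → ∑ i ∈ Finset.range (n + 1), a i * t ^ i = 0 →
    ∃ j : ℕ, 0 < j ∧ ∃ r ∈ R, r ≠ 0 ∧ ∀ y ∈ R, t ^ j * y * (t ^ j)⁻¹ = r * y * r⁻¹ := by
  classical
  induction n using Nat.strong_induction_on with
  | _ n ih =>
  intro a haR han hsum
  have hinv : ∀ x ∈ R, x⁻¹ ∈ R := fun x hx =>
    inv_mem_of_isAlgebraic R hx (Algebra.IsAlgebraic.isAlgebraic x)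
  have htp : ∀ i : ℕ, t ^ i ≠ 0 := fun i => pow_ne_zero i ht0
  -- the new coefficients
  let c : D → ℕ → D := fun x i =>
    a i * (t ^ i * x * (t ^ i)⁻¹) - a n * (t ^ n * x * (t ^ n)⁻¹) * (a n)⁻¹ * a i
  have hcR : ∀ x ∈ R, ∀ i, c x i ∈ R := by
    intro x hx i
    refine R.sub_mem (R.mul_mem (haR i) (pow_conj_mem R t h1 i x hx)) ?_
    exact R.mul_mem (R.mul_mem (R.mul_mem (haR n) (pow_conj_mem R t h1 n x hx))
      (hinv _ (haR n))) (haR i)
  have hcn : ∀ x, c x n = 0 := by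
    intro x
    simp only [c]
    rw [mul_assoc (a n * (t ^ n * x * (t ^ n)⁻¹)), inv_mul_cancel₀ han, mul_one, sub_self]
  have hcsum : ∀ x, ∑ i ∈ Finset.range (n + 1), c x i * t ^ i = 0 := by
    intro x
    have e1 : ∑ i ∈ Finset.range (n + 1), a i * (t ^ i * x * (t ^ i)⁻¹) * t ^ i
        = (∑ i ∈ Finset.range (n + 1), a i * t ^ i) * x := by
      rw [Finset.sum_mul]
      refine Finset.sum_congr rfl fun i _ => ?_
      rw [mul_assoc (a i), mul_assoc (t ^ i * x), inv_mul_cancel₀ (htp i), mul_one, mul_assoc]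
    have e2 : ∑ i ∈ Finset.range (n + 1),
        a n * (t ^ n * x * (t ^ n)⁻¹) * (a n)⁻¹ * a i * t ^ i
        = a n * (t ^ n * x * (t ^ n)⁻¹) * (a n)⁻¹ * ∑ i ∈ Finset.range (n + 1), a i * t ^ i := by
      rw [Finset.mul_sum]
      refine Finset.sum_congr rfl fun i _ => ?_
      rw [mul_assoc]
    simp only [c, sub_mul, Finset.sum_sub_distrib]
    rw [e1, e2, hsum]; simp
  by_cases hall : ∀ x ∈ R, ∀ i, i < n → c x i = 0
  · -- some lower coefficient is nonzero
    have hex : ∃ i, i < n ∧ a i ≠ 0 := by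
      by_contra hcon
      push Not at hcon
      rw [Finset.sum_range_succ] at hsum
      have : ∑ i ∈ Finset.range n, a i * t ^ i = 0 :=
        Finset.sum_eq_zero fun i hi => by rw [hcon i (Finset.mem_range.1 hi), zero_mul]
      rw [this, zero_add] at hsum
      exact (mul_ne_zero han (htp n)) hsum
    obtain ⟨i, hin, hai⟩ := hex
    refine ⟨n - i, Nat.sub_pos_of_lt hin, (a n)⁻¹ * a i, R.mul_mem (hinv _ (haR n)) (haR i),
      mul_ne_zero (inv_ne_zero han) hai, ?_⟩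
    intro y hy
    have hx : (t ^ i)⁻¹ * y * t ^ i ∈ R := pow_conj_mem' R t h2 i y hy
    have hc0 := hall _ hx i hin
    simp only [c] at hc0
    rw [sub_eq_zero] at hc0
    have e3 : t ^ i * ((t ^ i)⁻¹ * y * t ^ i) * (t ^ i)⁻¹ = y := by
      rw [← mul_assoc, ← mul_assoc, mul_inv_cancel₀ (htp i), one_mul, mul_assoc,
        mul_inv_cancel₀ (htp i), mul_one]
    have e4 : t ^ n * ((t ^ i)⁻¹ * y * t ^ i) * (t ^ n)⁻¹ = t ^ (n - i) * y * (t ^ (n - i))⁻¹ := by
      have hn : t ^ n = t ^ (n - i) * t ^ i := by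
        rw [← pow_add, Nat.sub_add_cancel hin.le]
      rw [hn, mul_inv_rev]
      have : t ^ (n - i) * t ^ i * ((t ^ i)⁻¹ * y * t ^ i) * ((t ^ i)⁻¹ * (t ^ (n - i))⁻¹)
          = t ^ (n - i) * (t ^ i * (t ^ i)⁻¹) * y * (t ^ i * (t ^ i)⁻¹) * (t ^ (n - i))⁻¹ := by
        simp only [mul_assoc]
      rw [this, mul_inv_cancel₀ (htp i), mul_one, mul_one]
    rw [e3, e4] at hc0
    -- hc0 : a i * y = a n * (conj) * (a n)⁻¹ * a i
    have : t ^ (n - i) * y * (t ^ (n - i))⁻¹ = (a n)⁻¹ * (a i * y) * (a i)⁻¹ * a n := by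
      rw [hc0]
      have : (a n)⁻¹ * (a n * (t ^ (n - i) * y * (t ^ (n - i))⁻¹) * (a n)⁻¹ * a i) * (a i)⁻¹ * a n
          = ((a n)⁻¹ * a n) * (t ^ (n - i) * y * (t ^ (n - i))⁻¹) * ((a n)⁻¹ * (a i * (a i)⁻¹) * a n)
          := by simp only [mul_assoc]
      rw [this, inv_mul_cancel₀ han, mul_inv_cancel₀ hai, mul_one, inv_mul_cancel₀ han, one_mul,
        mul_one]
    rw [this, mul_inv_rev, inv_inv]
    simp only [mul_assoc]
  · push Not at hall
    obtain ⟨x, hx, i0, hi0, hci0⟩ := hall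
    set m := Nat.findGreatest (fun i => c x i ≠ 0) n with hm
    have hmspec : c x m ≠ 0 :=
      Nat.findGreatest_spec (P := fun i => c x i ≠ 0) hi0.le hci0
    have hmle : m ≤ n := Nat.findGreatest_le n
    have hmlt : m < n := by
      rcases hmle.lt_or_eq with h | h
      · exact h
      · exact absurd (h ▸ hcn x) hmspec
    have hgt : ∀ k, m < k → k ≤ n → c x k = 0 := by
      intro k hk hkn
      by_contra hne
      exact Nat.findGreatest_is_greatest (P := fun i => c x i ≠ 0) hk hkn hne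
    have hsum' : ∑ i ∈ Finset.range (m + 1), c x i * t ^ i = 0 := by
      rw [← hcsum x]
      refine Finset.sum_subset ?_ ?_
      · intro k hk
        simp only [Finset.mem_range] at hk ⊢
        omega
      · intro k hk hk'
        simp only [Finset.mem_range] at hk hk'
        rw [hgt k (by omega) (by omega), zero_mul]
    exact ih m hmlt (c x) (hcR x hx) hmspec hsum'

/-- If `t` normalises the subalgebra `R` of an algebraic division algebra, then some positive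
power of `t` acts on `R` by conjugation as an inner automorphism of `R`. -/
theorem exists_pow_inner [Algebra.IsAlgebraic F D] (R : Subalgebra F D) (t : D) (ht0 : t ≠ 0)
    (h1 : ∀ x ∈ R, t * x * t⁻¹ ∈ R) (h2 : ∀ x ∈ R, t⁻¹ * x * t ∈ R) :
    ∃ j : ℕ, 0 < j ∧ ∃ r ∈ R, r ≠ 0 ∧ ∀ y ∈ R, t ^ j * y * (t ^ j)⁻¹ = r * y * r⁻¹ := by
  have hint : IsIntegral F t := (Algebra.IsAlgebraic.isAlgebraic t).isIntegral
  set p := minpoly F t with hp
  have hp0 : p ≠ 0 := minpoly.ne_zero hint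
  refine exists_pow_inner_aux R t ht0 h1 h2 p.natDegree (fun i => algebraMap F D (p.coeff i))
    (fun i => R.algebraMap_mem _) ?_ ?_
  · have : p.coeff p.natDegree ≠ 0 := by
      simpa using hp0
    simpa using this
  · have h := minpoly.aeval F t
    rw [← hp, aeval_eq_sum_range] at h
    simpa [Algebra.smul_def] using h

end Vale.Agent.Lib.P199
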