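import Vale.Agent.Lib.P199.Inner

namespace Vale.Agent.Lib.P199

open Polynomial

variable {F D : Type*} [Field F] [DivisionRing D] [Algebra F D]

/-- A subalgebra is locally finite-dimensional: each finite subset generates a
finite-dimensional subalgebra. -/
def LocFin (R : Subalgebra F D) : Prop :=
  ∀ s : Finset D, (s : Set D) ⊆ R → FiniteDimensional F (Algebra.adjoin F (s : Set D))

theorem exists_finset_of_mem_adjoin_insert (t : D) (X : Set D) {z : D}
    (hz : z ∈ Algebra.adjoin F (insert t X)) :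
    ∃ Y : Finset D, (Y : Set D) ⊆ X ∧ z ∈ Algebra.adjoin F (insert t (Y : Set D)) := by
  classical
  induction hz using Algebra.adjoin_induction with
  | mem x hx =>
    rcases hx with rfl | hx
    · exact ⟨∅, by simp, Algebra.subset_adjoin (by simp)⟩
    · exact ⟨{x}, by simpa using hx, Algebra.subset_adjoin (by simp)⟩
  | algebraMap r => exact ⟨∅, by simp, Subalgebra.algebraMap_mem _ r⟩
  | add x y _ _ hx hy =>
    obtain ⟨Y1, h1, h1'⟩ := hx
    obtain ⟨Y2, h2, h2'⟩ := hy
    refine ⟨Y1 ∪ Y2, by simp [h1, h2], ?_⟩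
    refine Subalgebra.add_mem _ (Algebra.adjoin_mono ?_ h1') (Algebra.adjoin_mono ?_ h2')
    · exact Set.insert_subset_insert (by simp)
    · exact Set.insert_subset_insert (by simp)
  | mul x y _ _ hx hy =>
    obtain ⟨Y1, h1, h1'⟩ := hx
    obtain ⟨Y2, h2, h2'⟩ := hy
    refine ⟨Y1 ∪ Y2, by simp [h1, h2], ?_⟩
    refine Subalgebra.mul_mem _ (Algebra.adjoin_mono ?_ h1') (Algebra.adjoin_mono ?_ h2')
    · exact Set.insert_subset_insert (by simp)
    · exact Set.insert_subset_insert (by simp)

theorem exists_finset_of_subset_adjoin_insert (t : D) (X : Set D) (s : Finset D)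
    (hs : (s : Set D) ⊆ Algebra.adjoin F (insert t X)) :
    ∃ Y : Finset D, (Y : Set D) ⊆ X ∧ (s : Set D) ⊆ Algebra.adjoin F (insert t (Y : Set D)) := by
  classical
  induction s using Finset.induction_on with
  | empty => exact ⟨∅, by simp, by simp⟩
  | insert a s _ ih =>
    rw [Finset.coe_insert, Set.insert_subset_iff] at hs
    obtain ⟨Y1, h1, h1'⟩ := ih hs.2
    obtain ⟨Y2, h2, h2'⟩ := exists_finset_of_mem_adjoin_insert t X hs.1
    refine ⟨Y1 ∪ Y2, by simp [h1, h2], ?_⟩
    rw [Finset.coe_insert, Set.insert_subset_iff]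
    constructor
    · exact Algebra.adjoin_mono (Set.insert_subset_insert (by simp)) h2'
    · exact h1'.trans (Algebra.adjoin_mono (Set.insert_subset_insert (by simp)))

/-- **Normalising extension theorem.** Let `D` be a division algebra algebraic over the central
subfield `F`. If the subalgebra generated by `X` is locally finite-dimensional and `t ≠ 0`
normalises it, then the subalgebra generated by `X` and `t` is locally finite-dimensional. -/
theorem locFin_adjoin_insert [Algebra.IsAlgebraic F D] (X : Set D)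
    (hX : LocFin (Algebra.adjoin F X)) (t : D) (ht0 : t ≠ 0)
    (h1 : ∀ x ∈ X, t * x * t⁻¹ ∈ Algebra.adjoin F X)
    (h2 : ∀ x ∈ X, t⁻¹ * x * t ∈ Algebra.adjoin F X) :
    LocFin (Algebra.adjoin F (insert t X)) := by
  classical
  set R := Algebra.adjoin F X with hR
  have h1' : ∀ x ∈ R, t * x * t⁻¹ ∈ R :=
    conj_mem_adjoin X R t t⁻¹ (inv_mul_cancel₀ ht0) h1
  have h2' : ∀ x ∈ R, t⁻¹ * x * t ∈ R :=
    conj_mem_adjoin X R t⁻¹ t (mul_inv_cancel₀ ht0) h2
  obtain ⟨j, hj, r, hr, hr0, hconj⟩ := exists_pow_inner R t ht0 h1' h2'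
  have hrinv : r⁻¹ ∈ R := inv_mem_of_isAlgebraic R hr (Algebra.IsAlgebraic.isAlgebraic r)
  intro s hs
  obtain ⟨Y, hYX, hsY⟩ := exists_finset_of_subset_adjoin_insert t X s hs
  have hYR : ∀ y ∈ Y, y ∈ R := fun y hy => Algebra.subset_adjoin (hYX hy)
  set Y0 : Finset D := insert r (insert r⁻¹ Y) with hY0
  have hY0R : ∀ y ∈ Y0, y ∈ R := by
    intro y hy
    simp only [hY0, Finset.mem_insert] at hy
    rcases hy with rfl | rfl | hy
    · exact hr
    · exact hrinv
    · exact hYR y hy
  set Y1 : Finset D :=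
    (Finset.range j).biUnion (fun i => Y0.image (fun y => t ^ i * y * (t ^ i)⁻¹)) with hY1
  have hY1R : (Y1 : Set D) ⊆ R := by
    intro z hz
    simp only [hY1, Finset.coe_biUnion, Finset.coe_range, Set.mem_iUnion, Finset.coe_image,
      Set.mem_image] at hz
    obtain ⟨i, _, y, hy, rfl⟩ := hz
    exact pow_conj_mem R t h1' i y (hY0R y hy)
  set R1 := Algebra.adjoin F (Y1 : Set D) with hR1
  have hR1fd : FiniteDimensional F R1 := hX Y1 hY1R
  have hmemY1 : ∀ i < j, ∀ y ∈ Y0, t ^ i * y * (t ^ i)⁻¹ ∈ R1 := by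
    intro i hi y hy
    refine Algebra.subset_adjoin ?_
    simp only [hY1, Finset.coe_biUnion, Finset.coe_range, Set.mem_iUnion, Finset.coe_image,
      Set.mem_image]
    exact ⟨i, hi, y, hy, rfl⟩
  have hY0R1 : ∀ y ∈ Y0, y ∈ R1 := by
    intro y hy
    have := hmemY1 0 hj y hy
    simpa using this
  have hstab : ∀ a ∈ R1, t * a * t⁻¹ ∈ R1 := by
    refine conj_mem_adjoin (Y1 : Set D) R1 t t⁻¹ (inv_mul_cancel₀ ht0) ?_
    intro z hz
    simp only [hY1, Finset.coe_biUnion, Finset.coe_range, Set.mem_iUnion, Finset.coe_image,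
      Set.mem_image] at hz
    obtain ⟨i, hi, y, hy, rfl⟩ := hz
    have e : t * (t ^ i * y * (t ^ i)⁻¹) * t⁻¹ = t ^ (i + 1) * y * (t ^ (i + 1))⁻¹ := by
      rw [pow_succ', mul_inv_rev]; simp [mul_assoc]
    rw [e]
    have hi' : i < j := hi
    rcases Nat.lt_or_ge (i + 1) j with h | h
    · exact hmemY1 (i + 1) h y hy
    · have hij : i + 1 = j := by omega
      rw [hij, hconj y (hY0R y hy)]
      refine R1.mul_mem (R1.mul_mem (hY0R1 r ?_) (hY0R1 y hy)) (hY0R1 r⁻¹ ?_)
      · simp [hY0]
      · simp [hY0]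
  have hfd : FiniteDimensional F (Algebra.adjoin F (insert t (R1 : Set D))) := by
    refine finiteDimensional_adjoin_insert R1 t (Algebra.IsAlgebraic.isAlgebraic t) ?_
    intro a ha
    refine ⟨t * a * t⁻¹, hstab a ha, ?_⟩
    rw [mul_assoc (t * a), inv_mul_cancel₀ ht0, mul_one]
  have hle : Algebra.adjoin F (s : Set D) ≤ Algebra.adjoin F (insert t (R1 : Set D)) := by
    refine Algebra.adjoin_le (hsY.trans ?_)
    have : Algebra.adjoin F (insert t (Y : Set D)) ≤ Algebra.adjoin F (insert t (R1 : Set D)) := by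
      refine Algebra.adjoin_mono (Set.insert_subset_insert ?_)
      intro y hy
      exact hY0R1 y (by simp only [hY0, Finset.mem_insert]; right; right; exact hy)
    exact this
  have hle' : (Algebra.adjoin F (s : Set D)).toSubmodule
      ≤ (Algebra.adjoin F (insert t (R1 : Set D))).toSubmodule := hle
  have h3 : FiniteDimensional F (Algebra.adjoin F (insert t (R1 : Set D))).toSubmodule :=
    (Subalgebra.finiteDimensional_toSubmodule).2 hfd
  have h4 : FiniteDimensional F (Algebra.adjoin F (s : Set D)).toSubmodule :=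
    Submodule.finiteDimensional_of_le hle'
  exact (Subalgebra.finiteDimensional_toSubmodule).1 h4

end Vale.Agent.Lib.P199
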