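import Vale.Agent.Lib.P199.LocFin

namespace Vale.Agent.Lib.P199

open scoped commutatorElement

variable {F D : Type*} [Field F] [DivisionRing D] [Algebra F D]

theorem fd_of_le {A B : Subalgebra F D} (h : A ≤ B) (hB : FiniteDimensional F B) :
    FiniteDimensional F A := by
  have hle' : A.toSubmodule ≤ B.toSubmodule := h
  have h3 : FiniteDimensional F B.toSubmodule := (Subalgebra.finiteDimensional_toSubmodule).2 hB
  have h4 : FiniteDimensional F A.toSubmodule := Submodule.finiteDimensional_of_le hle'
  exact (Subalgebra.finiteDimensional_toSubmodule).1 h4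

variable (F) in
/-- The `F`-subalgebra generated by a subgroup of the unit group. -/
def alg (G : Subgroup Dˣ) : Subalgebra F D := Algebra.adjoin F (Units.val '' (G : Set Dˣ))

theorem locFin_alg_bot : LocFin (alg F (⊥ : Subgroup Dˣ)) := by
  intro s hs
  have h1 : alg F (⊥ : Subgroup Dˣ) ≤ ⊥ := by
    refine Algebra.adjoin_le ?_
    rintro _ ⟨u, hu, rfl⟩
    have : u = 1 := by simpa using hu
    rw [this]
    exact Subalgebra.one_mem _
  have h2 : Algebra.adjoin F (s : Set D) ≤ ⊥ := Algebra.adjoin_le (hs.trans h1)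
  exact fd_of_le h2 inferInstance

theorem locFin_alg_step [Algebra.IsAlgebraic F D] (H : Subgroup Dˣ)
    (hH : LocFin (alg F ⁅H, H⁆)) : LocFin (alg F H) := by
  classical
  set X0 : Set D := Units.val '' ((⁅H, H⁆ : Subgroup Dˣ) : Set Dˣ) with hX0
  have hcomm_le : ⁅H, H⁆ ≤ H := by
    rw [Subgroup.commutator_le]
    intro g₁ h₁ g₂ h₂
    rw [commutatorElement_def]
    exact H.mul_mem (H.mul_mem (H.mul_mem h₁ h₂) (H.inv_mem h₁)) (H.inv_mem h₂)
  have main : ∀ Y : Finset D, (Y : Set D) ⊆ Units.val '' (H : Set Dˣ) →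
      LocFin (Algebra.adjoin F (X0 ∪ (Y : Set D))) := by
    intro Y
    induction Y using Finset.induction_on with
    | empty => intro _; simpa [alg] using hH
    | insert a Y _ ih =>
      intro hY
      rw [Finset.coe_insert, Set.insert_subset_iff] at hY
      obtain ⟨⟨g, hg, rfl⟩, hY'⟩ := hY
      have ihY := ih hY'
      have hset : X0 ∪ ((insert (g : D) Y : Finset D) : Set D) = insert (g : D) (X0 ∪ (Y : Set D)) := by
        rw [Finset.coe_insert, Set.union_insert]
      rw [hset]
      have hmemH : ∀ x ∈ X0 ∪ (Y : Set D), ∃ h ∈ H, (h : D) = x := by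
        rintro x (⟨h, hh, rfl⟩ | hx)
        · exact ⟨h, hcomm_le hh, rfl⟩
        · obtain ⟨h, hh, rfl⟩ := hY' hx
          exact ⟨h, hh, rfl⟩
      have conj : ∀ k ∈ H, ∀ x ∈ X0 ∪ (Y : Set D),
          (k : D) * x * (k : D)⁻¹ ∈ Algebra.adjoin F (X0 ∪ (Y : Set D)) := by
        intro k hk x hx
        obtain ⟨h, hh, rfl⟩ := hmemH x hx
        have e : (k : D) * (h : D) * (k : D)⁻¹ = ((⁅k, h⁆ : Dˣ) : D) * (h : D) := by
          rw [commutatorElement_def]
          simp [mul_assoc]
        rw [e]
        refine Subalgebra.mul_mem _ (Algebra.subset_adjoin (Or.inl ?_)) (Algebra.subset_adjoin hx)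
        exact ⟨⁅k, h⁆, Subgroup.commutator_mem_commutator hk hh, rfl⟩
      refine locFin_adjoin_insert _ ihY (g : D) g.ne_zero (conj g hg) ?_
      intro x hx
      have := conj g⁻¹ (H.inv_mem hg) x hx
      simpa using this
  intro s hs
  have hs' : (s : Set D) ⊆ Algebra.adjoin F (insert (1 : D) (Units.val '' (H : Set Dˣ))) :=
    hs.trans (Algebra.adjoin_mono (Set.subset_insert _ _))
  obtain ⟨Y, hY, hsY⟩ := exists_finset_of_subset_adjoin_insert (1 : D) _ s hs'
  refine main Y hY s (hsY.trans ?_)
  have : Algebra.adjoin F (insert (1 : D) (Y : Set D)) ≤ Algebra.adjoin F (X0 ∪ (Y : Set D)) := by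
    refine Algebra.adjoin_le ?_
    rw [Set.insert_subset_iff]
    exact ⟨Subalgebra.one_mem _, fun y hy => Algebra.subset_adjoin (Or.inr hy)⟩
  exact this

/-- For a solvable subgroup `G` of the unit group of an algebraic division algebra,
the subalgebra `F[G]` is locally finite-dimensional. -/
theorem locFin_alg_of_isSolvable [Algebra.IsAlgebraic F D] (G : Subgroup Dˣ) [hG : Group.IsSolvable G] :
    LocFin (alg F G) := by
  obtain ⟨n, hn⟩ := hG.solvable
  set K : ℕ → Subgroup Dˣ := fun k => (derivedSeries G k).map G.subtype with hK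
  have hK0 : K 0 = G := by
    simp only [hK, derivedSeries_zero]
    rw [← MonoidHom.range_eq_map, Subgroup.range_subtype]
  have hKs : ∀ k, K (k + 1) = ⁅K k, K k⁆ := by
    intro k
    simp only [hK, derivedSeries_succ, Subgroup.map_commutator]
  have hKn : K n = ⊥ := by
    simp [hK, hn]
  have key : ∀ j, LocFin (alg F (K (n - j))) := by
    intro j
    induction j with
    | zero => rw [Nat.sub_zero, hKn]; exact locFin_alg_bot
    | succ j ih =>
      rcases Nat.eq_zero_or_pos (n - j) with h | h
      · have : n - (j + 1) = n - j := by omega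
        rw [this]; exact ih
      · have : n - j = (n - (j + 1)) + 1 := by omega
        rw [this, hKs] at ih
        exact locFin_alg_step _ ih
  have := key n
  rwa [Nat.sub_self, hK0] at this

end Vale.Agent.Lib.P199
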